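import Mathlib

/-!
# P192: a finitely generated periodic group built from finite and abelian groups by extensions
and directed unions is finite
-/

namespace Vale.Agent.Results.P192.ElementaryAmenable

/-- The class of groups generated from finite groups and abelian groups by group extensions and
directed unions. -/
inductive EG : (G : Type) → [Group G] → Prop
  | of_finite (G : Type) [Group G] [Finite G] : EG G
  | of_comm (G : Type) [Group G] (h : ∀ a b : G, a * b = b * a) : EG G
  | of_ext (G : Type) [Group G] (N : Subgroup G) [N.Normal] : EG N → EG (G ⧸ N) → EG G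
  | of_union (G : Type) [Group G] (ι : Type) [Nonempty ι] (H : ι → Subgroup G)
      (hd : Directed (· ≤ ·) H) (hU : ∀ g, ∃ i, g ∈ H i) : (∀ i, EG (H i)) → EG G

theorem top_case {G : Type} [Group G] (K : Subgroup G) (hK : K = ⊤)
    (ih : Group.FG K → IsMulTorsion K → Finite K) (hfg : Group.FG G) (ht : IsMulTorsion G) :
    Finite G := by
  subst hK
  have h1 : Group.FG (⊤ : Subgroup G) :=
    Group.fg_of_surjective (f := (Subgroup.topEquiv (G := G)).symm.toMonoidHom)
      (Subgroup.topEquiv (G := G)).symm.surjective
  have h3 := ih h1 (ht.subgroup _)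
  exact Finite.of_equiv _ (Subgroup.topEquiv (G := G)).toEquiv

theorem comm_case {G : Type} [inst : Group G] (hc : ∀ a b : G, a * b = b * a)
    (hfg : Group.FG G) (ht : IsMulTorsion G) : Finite G := by
  letI : CommGroup G := { inst with mul_comm := hc }
  exact CommGroup.finite_of_fg_isMulTorsion G ht

theorem aux {G : Type} [Group G] (h : EG G) : Group.FG G → IsMulTorsion G → Finite G := by
  induction h with
  | of_finite G => intro _ _; infer_instance
  | of_comm G hc => intro hfg ht; exact comm_case hc hfg ht
  | of_ext G N _ _ ihN ihQ =>
    intro hfg ht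
    have hsurj : Function.Surjective (QuotientGroup.mk' N) := QuotientGroup.mk'_surjective N
    have h1 : Group.FG (G ⧸ N) := Group.fg_of_surjective hsurj
    have h2 : IsMulTorsion (G ⧸ N) := IsMulTorsion.of_surjective hsurj ht
    have hQ : Finite (G ⧸ N) := ihQ h1 h2
    have hidx : N.FiniteIndex := Subgroup.finiteIndex_of_finite_quotient
    have hfgN : Group.FG N := inferInstance
    have hN : Finite N := ihN hfgN (ht.subgroup N)
    have hcard := Subgroup.card_eq_card_quotient_mul_card_subgroup N
    apply Nat.finite_of_card_ne_zero
    rw [hcard]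
    exact Nat.mul_ne_zero Nat.card_pos.ne' Nat.card_pos.ne'
  | of_union G ι H hd hU _ ih =>
    intro hfg ht
    classical
    obtain ⟨S, hS, hSfin⟩ := Group.fg_iff.1 hfg
    choose idx hidx using hU
    obtain ⟨z, hz⟩ := hd.finset_le (hSfin.toFinset.image idx)
    have hsub : S ⊆ (H z : Set G) := by
      intro g hg
      have : idx g ∈ hSfin.toFinset.image idx :=
        Finset.mem_image_of_mem _ (hSfin.mem_toFinset.2 hg)
      exact hz _ this (hidx g)
    have htop : H z = ⊤ := by
      rw [eq_top_iff, ← hS]
      exact (Subgroup.closure_le _).2 hsub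
    exact top_case (H z) htop (ih z) hfg ht

theorem result (G : Type) [Group G] [Group.FG G] (h : EG G)
    (hG : ∀ g : G, IsOfFinOrder g) : Finite G :=
  aux h inferInstance hG

end Vale.Agent.Results.P192.ElementaryAmenable
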