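import Mathlib

/-!
# P192: a finitely presented group with more generators than relators is not periodic

If `r < m` then the group presented by `m` generators and `r` relators admits a
homomorphism to the additive group of the rationals which is nonzero on some generator;
that generator has infinite order.
-/

namespace Vale.Agent.Results.P192.PositiveDeficiency

open Module

/-- The exponent-sum homomorphism with formal weights: a word is sent to the linear form
`v ↦ ∑ (exponent sum of generator j) * v j`. -/
noncomputable def expo (m : ℕ) :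
    FreeGroup (Fin m) →* Multiplicative ((Fin m → ℚ) →ₗ[ℚ] ℚ) :=
  FreeGroup.lift (fun j => Multiplicative.ofAdd (LinearMap.proj j))

/-- evaluation of a linear form at `v`, as a monoid hom of multiplicative types. -/
noncomputable def evalAt (m : ℕ) (v : Fin m → ℚ) :
    Multiplicative ((Fin m → ℚ) →ₗ[ℚ] ℚ) →* Multiplicative ℚ :=
  AddMonoidHom.toMultiplicative
    { toFun := fun f => f v
      map_zero' := rfl
      map_add' := fun _ _ => rfl }

theorem exists_weight (m r : ℕ) (rels : Fin r → FreeGroup (Fin m)) (h : r < m) :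
    ∃ v : Fin m → ℚ, v ≠ 0 ∧ ∀ i, (Multiplicative.toAdd (expo m (rels i))) v = 0 := by
  classical
  let L : (Fin m → ℚ) →ₗ[ℚ] (Fin r → ℚ) :=
    LinearMap.pi (fun i => Multiplicative.toAdd (expo m (rels i)))
  have hk : LinearMap.ker L ≠ ⊥ := by
    apply LinearMap.ker_ne_bot_of_finrank_lt
    simpa using h
  obtain ⟨v, hv, hv0⟩ := (Submodule.ne_bot_iff _).1 hk
  refine ⟨v, hv0, fun i => ?_⟩
  have := congrFun (LinearMap.mem_ker.1 hv) i
  simpa [L] using this

theorem result (m r : ℕ) (rels : Fin r → FreeGroup (Fin m)) (h : r < m) :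
    ∃ j : Fin m, ¬ IsOfFinOrder (PresentedGroup.of (rels := Set.range rels) j) := by
  classical
  obtain ⟨v, hv0, hv⟩ := exists_weight m r rels h
  have hj : ∃ j, v j ≠ 0 := by
    by_contra hcon
    push Not at hcon
    exact hv0 (funext hcon)
  obtain ⟨j, hj⟩ := hj
  refine ⟨j, ?_⟩
  let f : Fin m → Multiplicative ℚ := fun k => Multiplicative.ofAdd (v k)
  have hlift : FreeGroup.lift f = (evalAt m v).comp (expo m) := by
    ext k
    simp [f, evalAt, expo]
  have hrel : ∀ w ∈ Set.range rels, FreeGroup.lift f w = 1 := by
    rintro _ ⟨i, rfl⟩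
    rw [hlift]
    have := hv i
    simp only [MonoidHom.comp_apply, evalAt]
    change Multiplicative.ofAdd ((Multiplicative.toAdd (expo m (rels i))) v) = 1
    rw [this]; rfl
  let ψ : PresentedGroup (Set.range rels) →* Multiplicative ℚ := PresentedGroup.toGroup hrel
  have hψ : ψ (PresentedGroup.of j) = Multiplicative.ofAdd (v j) := by
    simp [ψ, f, PresentedGroup.toGroup.of]
  intro hfin
  have h2 : IsOfFinOrder (ψ (PresentedGroup.of j)) := MonoidHom.isOfFinOrder ψ hfin
  rw [hψ] at h2
  rw [isOfFinOrder_iff_pow_eq_one] at h2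
  obtain ⟨n, hn, hpow⟩ := h2
  have h3 : n • v j = 0 := by
    have := congrArg Multiplicative.toAdd hpow
    simpa using this
  rcases smul_eq_zero.1 h3 with h4 | h4
  · omega
  · exact hj h4

end Vale.Agent.Results.P192.PositiveDeficiency
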