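import Mathlib

/-!
# P192: finitely generated periodic solvable groups are finite

So the finitely presented Burnside question has a positive answer for solvable groups.
-/

namespace Vale.Agent.Results.P192.SolvableCase

theorem map_derivedSeries_commutator (G : Type) [Group G] (n : ℕ) :
    (derivedSeries (commutator G) n).map (commutator G).subtype = derivedSeries G (n + 1) := by
  induction n with
  | zero =>
    rw [derivedSeries_succ, derivedSeries_zero, derivedSeries_zero, ← MonoidHom.range_eq_map,
      Subgroup.range_subtype]
    rfl
  | succ n ih =>
    rw [derivedSeries_succ, Subgroup.map_commutator, ih]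
    exact (derivedSeries_succ G (n + 1)).symm

theorem aux (n : ℕ) : ∀ (G : Type) [Group G] [Group.FG G], IsMulTorsion G →
    derivedSeries G n = ⊥ → Finite G := by
  induction n with
  | zero =>
    intro G _ _ _ h
    rw [derivedSeries_zero] at h
    have h1 : Subsingleton (Subgroup G) := subsingleton_of_bot_eq_top h.symm
    have h2 : Subsingleton G := Subgroup.subsingleton_iff.1 h1
    infer_instance
  | succ n ih =>
    intro G _ _ tG h
    have hsurj : Function.Surjective (Abelianization.of : G →* Abelianization G) :=
      QuotientGroup.mk'_surjective _
    have hfg : Group.FG (Abelianization G) := Group.fg_of_surjective hsurj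
    have htor : IsMulTorsion (Abelianization G) := IsMulTorsion.of_surjective hsurj tG
    have hfin : Finite (Abelianization G) := CommGroup.finite_of_fg_isMulTorsion _ htor
    have hfin' : Finite (G ⧸ commutator G) := hfin
    have hidx : (commutator G).FiniteIndex := Subgroup.finiteIndex_of_finite_quotient
    have hfgK : Group.FG (commutator G) := inferInstance
    have hK : derivedSeries (commutator G) n = ⊥ := by
      have := map_derivedSeries_commutator G n
      rw [h] at this
      exact (Subgroup.map_eq_bot_iff_of_injective _ (Subgroup.subtype_injective _)).1 this
    have hfinK : Finite (commutator G) := ih (commutator G) (tG.subgroup _) hK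
    have hcard := Subgroup.card_eq_card_quotient_mul_card_subgroup (commutator G)
    apply Nat.finite_of_card_ne_zero
    rw [hcard]
    exact Nat.mul_ne_zero Nat.card_pos.ne' Nat.card_pos.ne'

theorem result (G : Type) [Group G] [Group.FG G] [Group.IsSolvable G]
    (hG : ∀ g : G, IsOfFinOrder g) : Finite G := by
  obtain ⟨n, hn⟩ := (Group.isSolvable_def G).1 inferInstance
  exact aux n G hG hn

end Vale.Agent.Results.P192.SolvableCase
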